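import Vale.Agent.P290.H595.Piece
import Vale.Agent.P290.H518.CritWrap

/-! The abstract Oka criterion with several transfers. -/

open Set Filter Metric
open scoped Manifold ContDiff Topology

namespace Vale.Agent.P290.H595

open Vale.Agent.P290

section

variable {X V : Type} [TopologicalSpace X] [ChartedSpace C2 X] [IsManifold 𝓘(ℂ, C2) 1 X]
  [NormedAddCommGroup V] [NormedSpace ℂ V] [FiniteDimensional ℂ V]

/-- finitely many pieces -/
theorem exists_spray {Q : Set V} (hQ : Good Q) {f : V → X} (hf : MHolNear C2 Q f) {ι : Type}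
    (D : ι → TSys X) (G : ∀ i, V → (D i).Y) (e : ∀ i, (D i).T.A → V → ℂ)
    (hT : ∀ i, Tr (D i).T Q f (G i) (e i)) (θ : ∀ i, (D i).L.A → V → ℂ)
    (hθ : ∀ i, Sec (D i).L Q (G i) (θ i)) (c : ι → ℂ) (t : Finset ι) :
    ∃ (W : Type) (_ : NormedAddCommGroup W) (_ : NormedSpace ℂ W) (_ : FiniteDimensional ℂ W)
      (S : V × W → X), MHolNear C2 (Q ×ˢ closedBall (0 : W) 1) S ∧
      FE (Q ×ˢ closedBall (0 : W) 1) (fun p => f p.1) S ∧ (∀ᶠ z in 𝓝ˢ Q, S (z, 0) = f z) ∧
      ∀ i ∈ t, ∀ z ∈ Q, (∃ a, G i z ∈ (D i).L.U a ∧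
        (D i).L.φ a (G i z) (c i * θ i a z) ∈ IndepSet (D i).L (D i).L') →
        Function.Surjective (mfderiv 𝓘(ℂ, W) 𝓘(ℂ, C2) (fun w => S (z, w)) 0 : W →L[ℂ] C2) := by
  classical
  induction t using Finset.induction_on with
  | empty =>
    refine ⟨ℂ, inferInstance, inferInstance, inferInstance, fun p => f p.1, ?_, FE.refl _,
      Eventually.of_forall fun z => rfl, fun i hi => absurd hi (Finset.notMem_empty i)⟩
    exact hf.comp (holNear_clm' (ContinuousLinearMap.fst ℂ V ℂ)) (fun p hp => hp.1)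
  | insert i t hit ih =>
    obtain ⟨W, _, _, _, S, hSh, hSF, hS0, hSp⟩ := ih
    obtain ⟨S', h1, h2, h3, h4⟩ := exists_piece (D i) hQ (hT i) (hθ i) (c i) hSh hS0
    have h0W : (0 : W) ∈ closedBall (0 : W) 1 := mem_closedBall_self zero_le_one
    have hι : HolNear Q (fun z : V => ((z, 0) : V × W)) :=
      holNear_clm' (ContinuousLinearMap.inl ℂ V W)
    have hιm : MapsTo (fun z : V => ((z, 0) : V × W)) Q (Q ×ˢ closedBall (0 : W) 1) :=
      fun z hz => ⟨hz, h0W⟩
    refine ⟨W × UU, inferInstance, inferInstance, inferInstance, S', h1, ?_, ?_, ?_⟩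
    · have hp : HolNear (Q ×ˢ closedBall (0 : W × UU) 1)
          (fun p : V × (W × UU) => ((p.1, p.2.1) : V × W)) :=
        holNear_clm' ((ContinuousLinearMap.fst ℂ V (W × UU)).prod
          ((ContinuousLinearMap.fst ℂ W UU).comp (ContinuousLinearMap.snd ℂ V (W × UU))))
      have hpm : MapsTo (fun p : V × (W × UU) => ((p.1, p.2.1) : V × W))
          (Q ×ˢ closedBall (0 : W × UU) 1) (Q ×ˢ closedBall (0 : W) 1) := by
        rintro ⟨z, w, u⟩ ⟨hz, hw⟩
        rw [mem_closedBall_zero_iff] at hw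
        exact ⟨hz, mem_closedBall_zero_iff.2 ((norm_fst_le (w, u)).trans hw)⟩
      exact FE.trans (hSF.comp hp hpm) h2
    · filter_upwards [(hι.tendsto hιm).eventually h3, hS0] with z k1 k2
      exact k1.trans k2
    · intro j hj z hz hcond
      have hz0 : ((z, 0) : V × (W × UU)) ∈ Q ×ˢ closedBall (0 : W × UU) 1 :=
        ⟨hz, mem_closedBall_self zero_le_one⟩
      have hS'm : MDifferentiableAt 𝓘(ℂ, W × UU) 𝓘(ℂ, C2) (fun w => S' (z, w)) 0 := by
        have k4 : MDifferentiableAt 𝓘(ℂ, W × UU) 𝓘(ℂ, V × (W × UU))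
            (fun w : W × UU => ((z, w) : V × (W × UU))) 0 := by
          apply DifferentiableAt.mdifferentiableAt
          fun_prop
        exact MDifferentiableAt.comp (g := S')
          (f := fun w : W × UU => ((z, w) : V × (W × UU))) (0 : W × UU)
          (h1.mdifferentiableAt hz0) k4
      -- derivatives along linear subspaces
      have hsub : ∀ {U : Type} [NormedAddCommGroup U] [NormedSpace ℂ U] (L : U →L[ℂ] (W × UU)),
          Function.Surjective (mfderiv 𝓘(ℂ, U) 𝓘(ℂ, C2) (fun u => S' (z, L u)) 0 : U →L[ℂ] C2) →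
          Function.Surjective (mfderiv 𝓘(ℂ, W × UU) 𝓘(ℂ, C2) (fun w => S' (z, w)) 0 :
            (W × UU) →L[ℂ] C2) := by
        intro U _ _ L hL
        have hL0 : L 0 = 0 := map_zero L
        have m1 : MDifferentiableAt 𝓘(ℂ, W × UU) 𝓘(ℂ, C2) (fun w => S' (z, w)) (L 0) := by
          rw [hL0]; exact hS'm
        have m2 : MDifferentiableAt 𝓘(ℂ, U) 𝓘(ℂ, W × UU) (fun u => L u) 0 :=
          L.differentiableAt.mdifferentiableAt
        have m3 : MDifferentiableAt 𝓘(ℂ, U) 𝓘(ℂ, C2) (fun u => S' (z, L u)) 0 :=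
          MDifferentiableAt.comp (g := fun w => S' (z, w)) (f := fun u => L u) (0 : U) m1 m2
        have m4 : (mfderiv 𝓘(ℂ, U) 𝓘(ℂ, C2) (fun u => S' (z, L u)) 0 : U →L[ℂ] C2) =
            (mfderiv 𝓘(ℂ, W × UU) 𝓘(ℂ, C2) (fun w => S' (z, w)) 0 : (W × UU) →L[ℂ] C2) ∘L L := by
          rw [mfd_eq m3, mfd_eq hS'm]
          have m5 : HasFDerivAt (fun w : W × UU => chartAt C2 (S' (z, 0)) (S' (z, w)))
              (fderiv ℂ (fun w : W × UU => chartAt C2 (S' (z, 0)) (S' (z, w))) 0) (L 0) := by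
            rw [hL0]
            exact (differentiableAt_chart_comp (chart_mem_atlas _ _) hS'm
              (mem_chart_source _ _)).hasFDerivAt
          have m6 := (m5.comp (0 : U) L.hasFDerivAt).fderiv
          rw [hL0]
          exact m6
        intro x
        obtain ⟨u, hu⟩ := hL x
        refine ⟨L u, ?_⟩
        rw [m4] at hu
        exact hu
      rcases Finset.mem_insert.1 hj with rfl | hj'
      · exact hsub (ContinuousLinearMap.inr ℂ W UU) (h4 z hz hcond)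
      · refine hsub (ContinuousLinearMap.inl ℂ W UU) ?_
        have m1 := hSp j hj' z hz hcond
        have hzQ : ((z, 0) : V × W) ∈ Q ×ˢ closedBall (0 : W) 1 := ⟨hz, h0W⟩
        have hev : (fun w : W => S' (z, ContinuousLinearMap.inl ℂ W UU w)) =ᶠ[𝓝 0]
            fun w => S (z, w) := by
          have k1 := (eventually_eventually_nhds' h3).self_of_nhdsSet _ hzQ
          have k2 : ContinuousAt (fun w : W => ((z, w) : V × W)) 0 := by fun_prop
          exact k2.eventually k1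
        have m2 : (mfderiv 𝓘(ℂ, W) 𝓘(ℂ, C2)
            (fun w : W => S' (z, ContinuousLinearMap.inl ℂ W UU w)) 0 : W →L[ℂ] C2) =
            mfderiv 𝓘(ℂ, W) 𝓘(ℂ, C2) (fun w => S (z, w)) 0 := hev.mfderiv_eq
        rw [m2]
        exact m1

omit [IsManifold 𝓘(ℂ, C2) 1 X] in
/-- local data at a point -/
theorem exists_data {K : Set V} (hK : Good K) {f : V → X} (hf : MHolNear C2 K f) {z₀ : V}
    (hz₀ : z₀ ∈ K) (hx : H518.CritPt X (f z₀)) :
    ∃ (D : TSys X) (G : V → D.Y) (e : D.T.A → V → ℂ) (θ : D.L.A → V → ℂ) (c : ℂ),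
      Tr D.T K f G e ∧ Sec D.L K G θ ∧ ∃ N ∈ 𝓝 z₀, ∀ z ∈ N ∩ K,
        ∃ a, G z ∈ D.L.U a ∧ D.L.φ a (G z) (c * θ a z) ∈ IndepSet D.L D.L' := by
  obtain ⟨Y, i1, i2, i3, i4, C, i5, i6, π, ρ, hπ, hρ, T, a, s, L, L', b, w, ha, hb, hw⟩ := hx
  let D : TSys X := { Y := Y, C := C, π := π, ρ := ρ, hπ := hπ, hρ := hρ, T := T, L := L, L' := L' }
  have hg : ∀ᶠ z in 𝓝ˢ K, MDifferentiableAt 𝓘(ℂ, V) 𝓘(ℂ) (fun z => π (f z)) z :=
    mdiff_comp_of_near (D := D) hf
  obtain ⟨e₀, he₀⟩ := exists_Aff T hK hg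
  obtain ⟨θ₀, hθ₀⟩ := exists_Lin T hK hg
  have h1 := hθ₀.self_of_nhdsSet z₀ hz₀ a ha
  have he := he₀.add_mul hθ₀ (h := fun _ => (s - e₀ a z₀) / θ₀ a z₀)
    (Eventually.of_forall fun _ => differentiableAt_const _)
  obtain ⟨G, hG⟩ := exists_Tr (T := T) (F := f) he
  have hGh : MHolNear C2 K G := hG.mHolNear (hg.mono fun z hz => hz.continuousAt) hf
  have hGz : G z₀ = T.ψ a (f z₀) s := by
    rw [hG.2.self_of_nhdsSet z₀ hz₀ a ha]
    congr 1
    have := h1.2.1
    field_simp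
    ring
  obtain ⟨θ, hθ, hθn⟩ := exists_triv L hK hGh
  have hbG : G z₀ ∈ L.U b := by rw [hGz]; exact hb
  have hne : θ b z₀ ≠ 0 := hθn.self_of_nhdsSet z₀ hz₀ b hbG
  set c := w / θ b z₀ with hc
  have hGd := hGh.mdifferentiableAt hz₀
  have hθz := Filter.Eventually.filter_mono (nhds_le_nhdsSet hz₀) hθ
  have hm : MDifferentiableAt 𝓘(ℂ, V) 𝓘(ℂ, C2) (fun z => L.φ b (G z) (c * θ b z)) z₀ := by
    apply L.φ_hol b V G (fun z => c * θ b z) z₀ hGd _ hbG
    exact (hθz.self_of_nhds b hbG).1.const_mul c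
  have h3 : L.φ b (G z₀) (c * θ b z₀) ∈ IndepSet L L' := by
    have : c * θ b z₀ = w := by rw [hc]; field_simp
    rw [this, hGz]; exact hw
  have h4 := hm.continuousAt.eventually ((isOpen_indepSet L L').mem_nhds h3)
  have h5 := hGd.continuousAt.eventually ((L.isOpen_U b).mem_nhds hbG)
  exact ⟨D, G, _, θ, c, hG, hθ, _, h4.and h5, fun z hz => ⟨b, hz.1.2, hz.1.1⟩⟩

/-- maps close to `f` have the same factorisations -/
theorem local_FE [T2Space X] (vol : VolForm X) (hcrit : ∀ x, H518.CritPt X x) {K : Set V}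
    (hK : IsCompact K) (hKc : Convex ℝ K) {f : V → X} (hf : MHolNear C2 K f) :
    ∃ 𝒪 : Set (V × X), IsOpen 𝒪 ∧ (∀ z ∈ K, (z, f z) ∈ 𝒪) ∧
      ∀ g : V → X, MHolNear C2 K g → (∀ z ∈ K, (z, g z) ∈ 𝒪) → FE K f g := by
  classical
  have hKg : Good K := ⟨hK, hKc⟩
  choose D G e θ c hT hθ N hN hNp using
    fun (z₀ : V) (hz₀ : z₀ ∈ K) => exists_data hKg hf hz₀ (hcrit (f z₀))
  obtain ⟨t, htc⟩ := hK.elim_nhds_subcover' N hN
  obtain ⟨W, _, _, _, S, hSh, hSF, hS0, hSp⟩ := exists_spray hKg hf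
    (ι := {z // z ∈ K}) (fun i => D i.1 i.2) (fun i => G i.1 i.2) (fun i => e i.1 i.2)
    (fun i => hT i.1 i.2) (fun i => θ i.1 i.2) (fun i => hθ i.1 i.2) (fun i => c i.1 i.2) t
  -- coordinates in the parameter space
  let φ : W ≃L[ℂ] (Fin (Module.finrank ℂ W) → ℂ) :=
    ContinuousLinearEquiv.ofFinrankEq (by simp only [Module.finrank_fintype_fun_eq_card,
      Fintype.card_fin])
  set J : Type := Fin (Module.finrank ℂ W) with hJ
  set M : ℝ := ‖(φ.symm : (J → ℂ) →L[ℂ] W)‖ + 1 with hM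
  have hMpos : 0 < M := by positivity
  set S' : V × (J → ℂ) → X := fun p => S (p.1, φ.symm p.2) with hS'
  set A : (V × (J → ℂ)) →L[ℂ] (V × W) := (ContinuousLinearMap.fst ℂ V (J → ℂ)).prod
    ((φ.symm : (J → ℂ) →L[ℂ] W).comp (ContinuousLinearMap.snd ℂ V (J → ℂ))) with hA
  have hAh : HolNear (K ×ˢ {(0 : J → ℂ)}) (fun p => A p) := holNear_clm' A
  have hAm : MapsTo (fun p => A p) (K ×ˢ {(0 : J → ℂ)}) (K ×ˢ closedBall (0 : W) 1) := by
    rintro ⟨z, w⟩ ⟨hz, rfl⟩
    refine ⟨hz, ?_⟩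
    change φ.symm 0 ∈ closedBall (0 : W) 1
    rw [map_zero]
    exact mem_closedBall_self zero_le_one
  have hS'h : MHolNear C2 (K ×ˢ {(0 : J → ℂ)}) S' := hSh.comp hAh hAm
  have hS'0 : ∀ᶠ z in 𝓝ˢ K, S' (z, 0) = f z := by
    filter_upwards [hS0] with z hz
    simp only [hS', map_zero]
    exact hz
  set DD : V → (J → ℂ) →L[ℂ] C2 := fun z =>
    mfderiv 𝓘(ℂ, J → ℂ) 𝓘(ℂ, C2) (fun w => S' (z, w)) 0 with hDD
  have hsurj : ∀ z ∈ K, Function.Surjective (DD z) := by
    intro z hz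
    obtain ⟨z₁, hz₁t, hz₁N⟩ := mem_iUnion₂.1 (htc hz)
    have h1 := hSp z₁ hz₁t z hz (hNp z₁.1 z₁.2 z ⟨hz₁N, hz⟩)
    have hz0 : ((z, 0) : V × W) ∈ K ×ˢ closedBall (0 : W) 1 :=
      ⟨hz, mem_closedBall_self zero_le_one⟩
    have hSm : MDifferentiableAt 𝓘(ℂ, W) 𝓘(ℂ, C2) (fun w => S (z, w)) 0 := by
      have k4 : MDifferentiableAt 𝓘(ℂ, W) 𝓘(ℂ, V × W) (fun w : W => ((z, w) : V × W)) 0 := by
        apply DifferentiableAt.mdifferentiableAt
        fun_prop
      exact MDifferentiableAt.comp (g := S) (f := fun w : W => ((z, w) : V × W)) (0 : W)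
        (hSh.mdifferentiableAt hz0) k4
    have hφ0 : φ.symm (0 : J → ℂ) = 0 := map_zero _
    have hSm' : MDifferentiableAt 𝓘(ℂ, W) 𝓘(ℂ, C2) (fun w => S (z, w)) (φ.symm (0 : J → ℂ)) := by
      rw [hφ0]; exact hSm
    have hφm : MDifferentiableAt 𝓘(ℂ, J → ℂ) 𝓘(ℂ, W) (fun w : J → ℂ => φ.symm w) 0 :=
      φ.symm.differentiableAt.mdifferentiableAt
    have hS'm : MDifferentiableAt 𝓘(ℂ, J → ℂ) 𝓘(ℂ, C2) (fun w => S' (z, w)) 0 :=
      MDifferentiableAt.comp (g := fun w => S (z, w)) (f := fun w : J → ℂ => φ.symm w)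
        (0 : J → ℂ) hSm' hφm
    have hD1 : DD z = (mfderiv 𝓘(ℂ, W) 𝓘(ℂ, C2) (fun w => S (z, w)) 0 : W →L[ℂ] C2) ∘L
        (φ.symm : (J → ℂ) →L[ℂ] W) := by
      have e1 : DD z = fderiv ℂ (fun w => chartAt C2 (S' (z, 0)) (S' (z, w))) 0 := mfd_eq hS'm
      rw [e1, mfd_eq hSm]
      have m5 : HasFDerivAt (fun w : W => chartAt C2 (S (z, 0)) (S (z, w)))
          (fderiv ℂ (fun w : W => chartAt C2 (S (z, 0)) (S (z, w))) 0)
          ((φ.symm : (J → ℂ) →L[ℂ] W) 0) := by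
        rw [map_zero]
        exact (differentiableAt_chart_comp (chart_mem_atlas _ _) hSm
          (mem_chart_source _ _)).hasFDerivAt
      have m6 := (m5.comp (0 : J → ℂ) (φ.symm : (J → ℂ) →L[ℂ] W).hasFDerivAt).fderiv
      have m7 : S' (z, 0) = S (z, 0) := by simp only [hS', map_zero]
      rw [m7]
      exact m6
    obtain ⟨DS, hDS⟩ : ∃ DS : W →L[ℂ] C2, DS =
        (mfderiv 𝓘(ℂ, W) 𝓘(ℂ, C2) (fun w => S (z, w)) 0 : W →L[ℂ] C2) := ⟨_, rfl⟩
    have h1' : Function.Surjective DS := by rw [hDS]; exact h1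
    rw [hD1, ← hDS]
    intro x
    obtain ⟨u, hu⟩ := h1' x
    refine ⟨φ u, ?_⟩
    change DS (φ.symm (φ u)) = x
    rw [φ.symm_apply_apply]
    exact hu
  obtain ⟨Pr, hPr, hPr2⟩ := exists_projector vol hKg S' hS'h DD (fun z => rfl) hsurj
  obtain ⟨𝒪, h𝒪o, h𝒪f, h𝒪⟩ := exists_solution hK S' f hS'h hS'0 Pr hPr DD (fun z => rfl)
    (hPr2.mono fun z hz => hz.1) (hPr2.mono fun z hz => hz.2.1) (hPr2.mono fun z hz => hz.2.2)
    (1 / M) (by positivity)
  refine ⟨𝒪, h𝒪o, h𝒪f, fun g hg hg𝒪 => ?_⟩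
  obtain ⟨w, hw, hwg⟩ := h𝒪 g hg hg𝒪
  have hP' : HolNear K (fun z => ((z, φ.symm (w z)) : V × W)) := by
    filter_upwards [hw] with z hz
    exact differentiableAt_id.prodMk (φ.symm.differentiableAt.comp z hz)
  have hmaps : MapsTo (fun z => ((z, φ.symm (w z)) : V × W)) K (K ×ˢ closedBall (0 : W) 1) := by
    intro z hz
    refine ⟨hz, ?_⟩
    rw [mem_closedBall_zero_iff]
    have h1 := (hwg.self_of_nhdsSet z hz).1
    have h2 : ‖(φ.symm : (J → ℂ) →L[ℂ] W) (w z)‖ ≤ M * ‖w z‖ :=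
      ((φ.symm : (J → ℂ) →L[ℂ] W).le_opNorm _).trans (by gcongr; rw [hM]; linarith only [])
    refine h2.trans ?_
    rw [lt_div_iff₀ hMpos] at h1
    linarith only [h1]
  have h5 : FE K ((fun p : V × W => f p.1) ∘ fun z => ((z, φ.symm (w z)) : V × W))
      (S ∘ fun z => ((z, φ.symm (w z)) : V × W)) := hSF.comp hP' hmaps
  refine FE.trans h5 (FE.of_eq ?_)
  filter_upwards [hwg] with z hz
  exact hz.2

/-- every germ along a compact convex set is equivalent to a constant map -/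
theorem FE_const [T2Space X] (vol : VolForm X) (hcrit : ∀ x, H518.CritPt X x) {K : Set V}
    (hK : IsCompact K) (hKc : Convex ℝ K) {z₀ : V} (hz₀ : z₀ ∈ K) {f : V → X}
    (hf : MHolNear C2 K f) : FE K (fun _ : V => f z₀) f := by
  set h : ℝ → V → V := fun t z => z₀ + (t : ℂ) • (z - z₀) with hh
  have hmaps : ∀ t ∈ Icc (0 : ℝ) 1, MapsTo (h t) K K := by
    intro t ht z hz
    have : h t z = (1 - t) • z₀ + t • z := by
      simp only [hh, Complex.coe_smul]
      module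
    rw [this]
    exact hKc hz₀ hz (by linarith only [ht.2]) ht.1 (by ring)
  have hhol : ∀ t ∈ Icc (0 : ℝ) 1, MHolNear C2 K (f ∘ h t) := fun t ht =>
    hf.comp (Eventually.of_forall fun z => by (clear * -; fun_prop)) (hmaps t ht)
  have hfc : ContinuousOn f K := hf.continuousOn
  have key : FE K (f ∘ h 0) (f ∘ h 1) := by
    have h01 : (0 : ℝ) ∈ Icc (0 : ℝ) 1 := by simp only [mem_Icc, Std.le_refl, zero_le_one, and_self]
    have h11 : (1 : ℝ) ∈ Icc (0 : ℝ) 1 := by simp only [mem_Icc, zero_le_one, Std.le_refl, and_self]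
    refine (isPreconnected_Icc (a := (0 : ℝ)) (b := 1)).induction₂
      (fun s t => FE K (f ∘ h s) (f ∘ h t)) ?_ ?_ ?_ h01 h11
    · intro t ht
      obtain ⟨𝒪, h𝒪o, h𝒪f, h𝒪⟩ := local_FE vol hcrit hK hKc (hhol t ht)
      have hcomp : ∀ᶠ s in 𝓝[Icc (0 : ℝ) 1] t, ∀ z ∈ K, (z, (f ∘ h s) z) ∈ 𝒪 := by
        have h1 : ∀ᶠ s in 𝓝 t, ∀ z ∈ K, (z, f (h s z)) ∈ 𝒪 := by
          refine hK.eventually_forall_of_forall_eventually fun z hz => ?_
          have k1 : ContinuousAt f ((fun p : ℝ × V => h p.1 p.2) (t, z)) :=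
            (hf.mdifferentiableAt (hmaps t ht hz)).continuousAt
          have k2 : ContinuousAt (fun p : ℝ × V => h p.1 p.2) (t, z) := by
            simp only [hh]
            exact (continuous_const.add ((Complex.continuous_ofReal.comp continuous_fst).smul
              (continuous_snd.sub continuous_const))).continuousAt
          have k3 : ContinuousAt (fun p : ℝ × V => ((p.2, f (h p.1 p.2)) : V × X)) (t, z) :=
            continuousAt_snd.prodMk (ContinuousAt.comp k1 k2)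
          exact k3.eventually (h𝒪o.mem_nhds (h𝒪f z hz))
        exact nhdsWithin_le_nhds h1
      filter_upwards [hcomp, self_mem_nhdsWithin] with s hs hs1
      exact h𝒪 _ (hhol s hs1) hs
    · intro x y z _ _ _ h1 h2
      exact h1.trans h2
    · intro x y _ _ h1
      exact h1.symm
  have e0 : f ∘ h 0 = fun _ => f z₀ := by
    funext z; simp only [hh, Complex.coe_smul, zero_smul, add_zero, Function.comp_apply]
  have e1 : f ∘ h 1 = f := by
    funext z; simp only [hh, Complex.coe_smul, one_smul, add_sub_cancel, Function.comp_apply]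
  rwa [e0, e1] at key

end

/-- The abstract criterion: if every point of `X` corresponds, under some transfer, to a point from
which some flow leads to a point of independence, then all germs along compact convex sets factor
through entire maps. -/
theorem core (X : Type) [TopologicalSpace X] [ChartedSpace C2 X] [T2Space X]
    [IsManifold 𝓘(ℂ, C2) 1 X] (vol : VolForm X) (hcrit : ∀ x, H518.CritPt X x) : HasFactor X := by
  intro V _ _ _ K hK hKc f hf
  rcases K.eq_empty_or_nonempty with rfl | ⟨z₀, hz₀⟩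
  · exact (factor_const (V := V) (E := C2) (Q := ∅) (f 0)).congr
      (by simp only [EventuallyEq, nhdsSet_empty, eventually_bot])
  · exact ((FE_const vol hcrit hK hKc hz₀ hf) V K (fun z => z) ⟨hK, hKc⟩
      (Eventually.of_forall fun _ => differentiableAt_id) (mapsTo_id K)).1
      (factor_const (V := V) (E := C2) (Q := K) (f z₀))

/-- The criterion for K3 surfaces: if all points of a K3 surface `X` correspond, on suitable twists
of `X`, to points which are noncritical for one of two maps to Riemann surfaces and isolated in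
their joint fibre, then `X` is Oka. -/
theorem isOka_of_twists (X : All.K3) (h : ∀ x : X.X, ∃ (Y : All.K3) (T : All.Twist X Y) (a : T.A)
    (R : All.RS) (ρ' : Y.X → R.C), T.π x ∈ T.O a ∧ (∀ y, All.HolC ρ' y) ∧
      (¬ All.Critical ρ' (T.h a x) ∨ ¬ All.Critical T.ρ (T.h a x)) ∧
      ∃ U ∈ 𝓝 (T.h a x), ∀ y ∈ U, T.ρ y = T.ρ (T.h a x) → ρ' y = ρ' (T.h a x) → y = T.h a x) :
    All.IsOka X.X :=
  H518.isOka_of_twists_of_core (fun X _ _ _ _ vol hcrit => core X vol hcrit) X h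

end Vale.Agent.P290.H595
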