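import Vale.Agent.P290.H595.Fac

/-! Surjectivity of the derivative of a transferred spray. -/

open Set Filter Metric
open scoped Manifold ContDiff Topology

namespace Vale.Agent.P290.H595

open Vale.Agent.P290

/-- the manifold derivative in the preferred chart -/
theorem mfd_eq {X W : Type} [TopologicalSpace X] [ChartedSpace C2 X] [NormedAddCommGroup W]
    [NormedSpace ℂ W] {F : W → X} {w : W} (h : MDifferentiableAt 𝓘(ℂ, W) 𝓘(ℂ, C2) F w) :
    (mfderiv 𝓘(ℂ, W) 𝓘(ℂ, C2) F w : W →L[ℂ] C2) =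
      fderiv ℂ (fun u => chartAt C2 (F w) (F u)) w := by
  rw [h.mfderiv]
  simp only [writtenInExtChartAt, extChartAt, OpenPartialHomeomorph.extend,
    modelWithCornersSelf_partialEquiv, PartialEquiv.trans_refl,
    OpenPartialHomeomorph.toFun_eq_coe, OpenPartialHomeomorph.coe_toPartialEquiv_symm,
    modelWithCornersSelf_coe, range_id, fderivWithin_univ]
  rfl

section

variable {X Y C : Type} [TopologicalSpace X] [ChartedSpace C2 X] [TopologicalSpace Y]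
  [ChartedSpace C2 Y] [TopologicalSpace C] [ChartedSpace ℂ C] {π : X → C} {ρ : Y → C}

theorem surj_transfer [IsManifold 𝓘(ℂ, C2) 1 X] [IsManifold 𝓘(ℂ, C2) 1 Y] (T : Transfer π ρ)
    (hπc : Continuous π)
    {U : Type} [NormedAddCommGroup U] [NormedSpace ℂ U] {s : U → Y} {E : U → ℂ} {u₀ : U}
    {a : T.A} (hs : MDifferentiableAt 𝓘(ℂ, U) 𝓘(ℂ, C2) s u₀) (hE : DifferentiableAt ℂ E u₀)
    (ha : ρ (s u₀) ∈ T.O a)
    (hsurj : ∀ y : C2, ∃ u : U, (mfderiv 𝓘(ℂ, U) 𝓘(ℂ, C2) s u₀ : U →L[ℂ] C2) u = y ∧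
      fderiv ℂ E u₀ u = 0) :
    Function.Surjective (mfderiv 𝓘(ℂ, U) 𝓘(ℂ, C2) (fun u => T.ψ' a (s u) (E u)) u₀ :
      U →L[ℂ] C2) := by
  set w₀ := E u₀ with hw₀
  set y₀ := s u₀ with hy₀
  set x₀ := T.ψ' a y₀ w₀ with hx₀
  set eX := chartAt C2 x₀ with heX
  set eY := chartAt C2 y₀ with heY
  have hxs : x₀ ∈ eX.source := mem_chart_source _ _
  have hys : y₀ ∈ eY.source := mem_chart_source _ _
  set Φ : C2 × ℂ → C2 := fun p => eX (T.ψ' a (eY.symm p.1) p.2) with hΦ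
  have hΦd : DifferentiableAt ℂ Φ (eY y₀, w₀) := by
    apply differentiableAt_chart_comp (chart_mem_atlas _ _)
    · have h1 : MDifferentiableAt 𝓘(ℂ, C2 × ℂ) 𝓘(ℂ, C2) (fun p : C2 × ℂ => eY.symm p.1)
          (eY y₀, w₀) := by
        have h2 : MDifferentiableAt 𝓘(ℂ, C2) 𝓘(ℂ, C2) eY.symm (eY y₀) :=
          mdifferentiableAt_atlas_symm (chart_mem_atlas _ _) (eY.map_source hys)
        have h3 : MDifferentiableAt 𝓘(ℂ, C2 × ℂ) 𝓘(ℂ, C2) (fun p : C2 × ℂ => p.1)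
            (eY y₀, w₀) := by
          apply DifferentiableAt.mdifferentiableAt
          fun_prop
        exact MDifferentiableAt.comp (g := eY.symm) (f := fun p : C2 × ℂ => p.1) (eY y₀, w₀) h2 h3
      refine T.ψ'_hol a (C2 × ℂ) (fun p => eY.symm p.1) (fun p => p.2) (eY y₀, w₀) h1
        (by fun_prop) ?_
      simpa only [eY.left_inv hys] using ha
    · simpa only [eY.left_inv hys] using hxs
  have hπx : π x₀ ∈ T.O a := by rw [hx₀, T.ψ'_base a _ _ ha]; exact ha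
  have hback : T.ψ a x₀ w₀ = y₀ := T.right_inv a _ _ ha
  set Ψ : C2 → C2 := fun q => eY (T.ψ a (eX.symm q) w₀) with hΨ
  have hΨm : MDifferentiableAt 𝓘(ℂ, C2) 𝓘(ℂ, C2) (fun q => T.ψ a (eX.symm q) w₀) (eX x₀) := by
    have h2 : MDifferentiableAt 𝓘(ℂ, C2) 𝓘(ℂ, C2) eX.symm (eX x₀) :=
      mdifferentiableAt_atlas_symm (chart_mem_atlas _ _) (eX.map_source hxs)
    refine T.ψ_hol a C2 (fun q => eX.symm q) (fun _ => w₀) (eX x₀) h2
      (differentiableAt_const _) ?_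
    rw [eX.left_inv hxs]; exact hπx
  have hΨ0 : T.ψ a (eX.symm (eX x₀)) w₀ = y₀ := by rw [eX.left_inv hxs, hback]
  have hΨd : DifferentiableAt ℂ Ψ (eX x₀) := by
    apply differentiableAt_chart_comp (chart_mem_atlas _ _) hΨm
    rw [hΨ0]; exact hys
  set A : C2 →L[ℂ] C2 := (fderiv ℂ Φ (eY y₀, w₀)) ∘L ContinuousLinearMap.inl ℂ C2 ℂ with hA
  have hAΨ : ∀ x : C2, A (fderiv ℂ Ψ (eX x₀) x) = x := by
    have h1 : HasFDerivAt (fun q => Φ (q, w₀)) A (Ψ (eX x₀)) := by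
      have h0 : Ψ (eX x₀) = eY y₀ := by simp only [hΨ, hΨ0]
      rw [h0]
      exact HasFDerivAt.comp (f := fun q : C2 => ((q, w₀) : C2 × ℂ)) (eY y₀) hΦd.hasFDerivAt
        (hasFDerivAt_prodMk_left _ _)
    have h2 : HasFDerivAt ((fun q => Φ (q, w₀)) ∘ Ψ) (A ∘L fderiv ℂ Ψ (eX x₀)) (eX x₀) :=
      h1.comp (eX x₀) hΨd.hasFDerivAt
    have h3 : ((fun q => Φ (q, w₀)) ∘ Ψ) =ᶠ[𝓝 (eX x₀)] fun q => q := by
      have k1 : ∀ᶠ q in 𝓝 (eX x₀), q ∈ eX.target := eX.open_target.mem_nhds (eX.map_source hxs)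
      have k2 : ∀ᶠ q in 𝓝 (eX x₀), T.ψ a (eX.symm q) w₀ ∈ eY.source := by
        refine hΨm.continuousAt.eventually (eY.open_source.mem_nhds ?_)
        change T.ψ a (eX.symm (eX x₀)) w₀ ∈ eY.source
        rw [hΨ0]; exact hys
      have k5 : ∀ᶠ q in 𝓝 (eX x₀), T.ψ' a (T.ψ a (eX.symm q) w₀) w₀ = eX.symm q := by
        have m1 : ContinuousAt (fun q => π (eX.symm q)) (eX x₀) :=
          ContinuousAt.comp (g := π) hπc.continuousAt
            (eX.continuousAt_symm (eX.map_source hxs))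
        have m2 : ∀ᶠ q in 𝓝 (eX x₀), π (eX.symm q) ∈ T.O a := by
          refine m1.eventually ((T.isOpen_O a).mem_nhds ?_)
          change π (eX.symm (eX x₀)) ∈ T.O a
          rw [eX.left_inv hxs]; exact hπx
        filter_upwards [m2] with q hq
        exact T.left_inv a _ _ hq
      filter_upwards [k1, k2, k5] with q q1 q2 q5
      simp only [hΦ, hΨ, Function.comp]
      rw [eY.left_inv q2, q5, eX.right_inv q1]
    have h4 : A ∘L fderiv ℂ Ψ (eX x₀) = ContinuousLinearMap.id ℂ C2 := by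
      rw [← h2.fderiv, h3.fderiv_eq]
      exact fderiv_fun_id
    intro x
    have := congrArg (fun L : C2 →L[ℂ] C2 => L x) h4
    simpa using this
  -- the derivative of the composition
  have hm : MDifferentiableAt 𝓘(ℂ, U) 𝓘(ℂ, C2) (fun u => T.ψ' a (s u) (E u)) u₀ :=
    T.ψ'_hol a U s E u₀ hs hE ha
  have hsd : DifferentiableAt ℂ (fun u => eY (s u)) u₀ :=
    differentiableAt_chart_comp (chart_mem_atlas _ _) hs hys
  have hev : (fun u => eX (T.ψ' a (s u) (E u))) =ᶠ[𝓝 u₀] fun u => Φ (eY (s u), E u) := by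
    filter_upwards [hs.continuousAt.eventually (eY.open_source.mem_nhds hys)] with u hu
    simp only [hΦ, eY.left_inv hu]
  have hD : (mfderiv 𝓘(ℂ, U) 𝓘(ℂ, C2) (fun u => T.ψ' a (s u) (E u)) u₀ : U →L[ℂ] C2) =
      (fderiv ℂ Φ (eY y₀, w₀)) ∘L ((fderiv ℂ (fun u => eY (s u)) u₀).prod (fderiv ℂ E u₀)) := by
    rw [mfd_eq hm]
    change fderiv ℂ (fun u => eX (T.ψ' a (s u) (E u))) u₀ = _
    rw [hev.fderiv_eq]
    have h1 : HasFDerivAt (fun u => ((eY (s u), E u) : C2 × ℂ))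
        ((fderiv ℂ (fun u => eY (s u)) u₀).prod (fderiv ℂ E u₀)) u₀ :=
      hsd.hasFDerivAt.prodMk hE.hasFDerivAt
    have h2 : HasFDerivAt Φ (fderiv ℂ Φ (eY y₀, w₀)) ((fun u => ((eY (s u), E u) : C2 × ℂ)) u₀) :=
      hΦd.hasFDerivAt
    exact (h2.comp u₀ h1).fderiv
  intro x
  obtain ⟨u, hu1, hu2⟩ := hsurj (fderiv ℂ Ψ (eX x₀) x)
  refine ⟨u, ?_⟩
  rw [mfd_eq hs] at hu1
  change fderiv ℂ (fun u => eY (s u)) u₀ u = _ at hu1
  rw [hD]
  change fderiv ℂ Φ (eY y₀, w₀) (fderiv ℂ (fun u => eY (s u)) u₀ u, fderiv ℂ E u₀ u) = x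
  rw [hu1, hu2]
  exact hAΨ x

end

end Vale.Agent.P290.H595
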