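import Vale.Agent.P290.H595.Trans

/-! Factorisation through entire maps is preserved by transfers. -/

open Set Filter Metric
open scoped Manifold ContDiff Topology

namespace Vale.Agent.P290.H595

open Vale.Agent.P290

section

variable {X Y C : Type} [TopologicalSpace X] [ChartedSpace C2 X] [TopologicalSpace Y]
  [ChartedSpace C2 Y] [TopologicalSpace C] [ChartedSpace ℂ C] {π : X → C} {ρ : Y → C}
  {V : Type} [NormedAddCommGroup V] [NormedSpace ℂ V]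

theorem factor_of_tr {T : Transfer π ρ} {K : Set V} {f : V → X} {G : V → Y} {e : T.A → V → ℂ}
    (hπ : MDifferentiable 𝓘(ℂ, C2) 𝓘(ℂ) π) (hρ : MDifferentiable 𝓘(ℂ, C2) 𝓘(ℂ) ρ)
    (hT : Tr T K f G e) (hf : MHolNear C2 K f) (hF : Factor C2 K G) : Factor C2 K f := by
  have he := hT.1
  have hGe := hT.2
  have hGb := hT.base
  have hg : ∀ᶠ z in 𝓝ˢ K, MDifferentiableAt 𝓘(ℂ, V) 𝓘(ℂ) (fun z => π (f z)) z := by
    filter_upwards [hf] with z hz
    exact (hπ (f z)).comp z hz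
  obtain ⟨W, _, _, _, Ψ, c, hΨ, hc, hGc⟩ := hF
  have hρΨ : MDifferentiable 𝓘(ℂ, W) 𝓘(ℂ) (fun y => ρ (Ψ y)) := fun y =>
    (hρ (Ψ y)).comp y (hΨ y)
  obtain ⟨e', he'⟩ := T.exists_aff_global hρΨ
  obtain ⟨θ, hθ⟩ := T.exists_lin_global hρΨ
  -- the entire map
  set Φ : W × ℂ → X := fun p => T.ψ' (T.idx (ρ (Ψ p.1))) (Ψ p.1)
    (e' (T.idx (ρ (Ψ p.1))) p.1 + θ (T.idx (ρ (Ψ p.1))) p.1 * p.2) with hΦ
  have hΦe : ∀ (y : W) (w : ℂ) a, ρ (Ψ y) ∈ T.O a →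
      Φ (y, w) = T.ψ' a (Ψ y) (e' a y + θ a y * w) := by
    intro y w a ha
    have hi := T.idx_mem (ρ (Ψ y))
    simp only [hΦ]
    have h1 := T.symm.ψ_trans (T.idx (ρ (Ψ y))) a (Ψ y)
      (e' (T.idx (ρ (Ψ y))) y + θ (T.idx (ρ (Ψ y))) y * w) hi ha
    have h2 := (he' y _ hi).2 a ha
    have h3 := (hθ y _ hi).2.2 a ha
    change T.ψ' _ _ _ = T.ψ' a _ _ at h1
    rw [h1, h2, h3]
    congr 1
    change T.γ _ _ _ * _ + T.σ _ _ _ = _
    ring
  have hΦd : MDifferentiable 𝓘(ℂ, W × ℂ) 𝓘(ℂ, C2) Φ := by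
    rintro ⟨y, w⟩
    have hi := T.idx_mem (ρ (Ψ y))
    set a := T.idx (ρ (Ψ y)) with ha
    have hfst : MDifferentiableAt 𝓘(ℂ, W × ℂ) 𝓘(ℂ, W) (fun p : W × ℂ => p.1) (y, w) := by
      apply DifferentiableAt.mdifferentiableAt
      fun_prop
    have h1 : MDifferentiableAt 𝓘(ℂ, W × ℂ) 𝓘(ℂ, C2) (fun p : W × ℂ => Ψ p.1) (y, w) :=
      MDifferentiableAt.comp (g := Ψ) (f := fun p : W × ℂ => p.1) (y, w) (hΨ y) hfst
    have h2 : DifferentiableAt ℂ (fun p : W × ℂ => e' a p.1 + θ a p.1 * p.2) (y, w) := by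
      have k1 : DifferentiableAt ℂ (fun p : W × ℂ => e' a p.1) (y, w) :=
        DifferentiableAt.comp (f := fun p : W × ℂ => p.1) (g := e' a) (y, w) (he' y a hi).1
          (by fun_prop)
      have k2 : DifferentiableAt ℂ (fun p : W × ℂ => θ a p.1) (y, w) :=
        DifferentiableAt.comp (f := fun p : W × ℂ => p.1) (g := θ a) (y, w) (hθ y a hi).1
          (by fun_prop)
      exact k1.add (k2.mul (by fun_prop))
    have h3 := T.ψ'_hol a (W × ℂ) (fun p => Ψ p.1) (fun p => e' a p.1 + θ a p.1 * p.2) (y, w)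
      h1 h2 hi
    refine h3.congr_of_eventuallyEq ?_
    have h4 : ∀ᶠ p : W × ℂ in 𝓝 (y, w), ρ (Ψ p.1) ∈ T.O a :=
      (continuous_fst.tendsto (y, w)).eventually
        ((hρΨ y).continuousAt.eventually ((T.isOpen_O a).mem_nhds hi))
    filter_upwards [h4] with p hp
    exact hΦe p.1 p.2 a hp
  -- the coordinate
  set h : V → ℂ := fun z => (e (T.idx (π (f z))) z - e' (T.idx (π (f z))) (c z)) /
    θ (T.idx (π (f z))) (c z) with hh
  have hmem : ∀ᶠ z in 𝓝ˢ K, ∀ a, π (f z) ∈ T.O a → ρ (Ψ (c z)) ∈ T.O a := by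
    filter_upwards [hGc, hGb] with z h1 h2 a ha
    rw [← h1, h2]; exact ha
  have hhe : ∀ᶠ z in 𝓝ˢ K, ∀ a, π (f z) ∈ T.O a →
      h z = (e a z - e' a (c z)) / θ a (c z) := by
    filter_upwards [he, hmem, hGc, hGb] with z h1 h2 h3 h4 a ha
    have hi := T.idx_mem (π (f z))
    have e1 := (h1 _ hi).2 a ha
    have e2 := (he' (c z) _ (h2 _ hi)).2 a (h2 a ha)
    have e3 := (hθ (c z) _ (h2 _ hi)).2.2 a (h2 a ha)
    have e4 : ρ (Ψ (c z)) = π (f z) := by rw [← h3, h4]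
    have hγ := T.γ_ne _ a _ hi ha
    have hθ0 := (hθ (c z) _ (h2 _ hi)).2.1
    simp only [hh]
    rw [e1, e2, e3, e4]
    field_simp
    ring
  refine ⟨W × ℂ, inferInstance, inferInstance, inferInstance, Φ, fun z => (c z, h z), hΦd, ?_, ?_⟩
  · filter_upwards [hc, hg, he, eventually_eventually_nhds' hhe, hmem] with z h1 h2 h3 h4 h5
    refine h1.prodMk ?_
    have hi := T.idx_mem (π (f z))
    set a := T.idx (π (f z)) with ha
    have k1 : DifferentiableAt ℂ (fun y => e' a (c y)) z :=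
      DifferentiableAt.comp (f := c) (g := e' a) z (he' (c z) a (h5 a hi)).1 h1
    have k2 : DifferentiableAt ℂ (fun y => θ a (c y)) z :=
      DifferentiableAt.comp (f := c) (g := θ a) z (hθ (c z) a (h5 a hi)).1 h1
    have k3 : DifferentiableAt ℂ (fun y => (e a y - e' a (c y)) / θ a (c y)) z := by
      simp only [div_eq_mul_inv]
      exact ((h3 a hi).1.sub k1).mul (k2.inv (hθ (c z) a (h5 a hi)).2.1)
    refine k3.congr_of_eventuallyEq ?_
    have k4 : ∀ᶠ y in 𝓝 z, π (f y) ∈ T.O a :=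
      h2.continuousAt.eventually ((T.isOpen_O a).mem_nhds hi)
    filter_upwards [h4, k4] with y hy1 hy2
    exact hy1 a hy2
  · filter_upwards [hhe, hmem, hGc, hGe] with z h1 h2 h3 h4
    have hi := T.idx_mem (π (f z))
    set a := T.idx (π (f z)) with ha
    have hθ0 := (hθ (c z) a (h2 a hi)).2.1
    rw [hΦe (c z) (h z) a (h2 a hi), h1 a hi]
    have k1 : e' a (c z) + θ a (c z) * ((e a z - e' a (c z)) / θ a (c z)) = e a z := by
      field_simp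
      ring
    rw [k1, ← h3, h4 a hi, T.left_inv a _ _ hi]

end

/-- `F` and `G` have the same pull backs which factor through entire maps -/
def FE {X Y V : Type} [TopologicalSpace X] [ChartedSpace C2 X] [TopologicalSpace Y]
    [ChartedSpace C2 Y] [NormedAddCommGroup V] [NormedSpace ℂ V]
    (Q : Set V) (F : V → X) (G : V → Y) : Prop :=
  ∀ (V₁ : Type) [NormedAddCommGroup V₁] [NormedSpace ℂ V₁] [FiniteDimensional ℂ V₁] (Q₁ : Set V₁)
    (P : V₁ → V), Good Q₁ → HolNear Q₁ P → MapsTo P Q₁ Q →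
      (Factor C2 Q₁ (F ∘ P) ↔ Factor C2 Q₁ (G ∘ P))

section

variable {X Y Z C : Type} [TopologicalSpace X] [ChartedSpace C2 X] [TopologicalSpace Y]
  [ChartedSpace C2 Y] [TopologicalSpace Z] [ChartedSpace C2 Z]
  [TopologicalSpace C] [ChartedSpace ℂ C] {π : X → C} {ρ : Y → C}
  {V : Type} [NormedAddCommGroup V] [NormedSpace ℂ V] {Q : Set V}

theorem FE.refl (F : V → X) : FE Q F F := fun _ _ _ _ _ _ _ _ _ => Iff.rfl

theorem FE.symm {F : V → X} {G : V → Y} (h : FE Q F G) : FE Q G F :=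
  fun V₁ _ _ _ Q₁ P h1 h2 h3 => (h V₁ Q₁ P h1 h2 h3).symm

theorem FE.trans {F : V → X} {G : V → Y} {H : V → Z} (h : FE Q F G) (h' : FE Q G H) :
    FE Q F H :=
  fun V₁ _ _ _ Q₁ P h1 h2 h3 => (h V₁ Q₁ P h1 h2 h3).trans (h' V₁ Q₁ P h1 h2 h3)

theorem FE.mono {Q' : Set V} {F : V → X} {G : V → Y} (h : FE Q F G) (hQ : Q' ⊆ Q) :
    FE Q' F G :=
  fun V₁ _ _ _ Q₁ P h1 h2 h3 => h V₁ Q₁ P h1 h2 (h3.mono_right hQ)

theorem FE.comp {V' : Type} [NormedAddCommGroup V'] [NormedSpace ℂ V'] {Q' : Set V'} {P : V' → V}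
    {F : V → X} {G : V → Y} (h : FE Q F G) (hP : HolNear Q' P) (hPQ : MapsTo P Q' Q) :
    FE Q' (F ∘ P) (G ∘ P) := by
  intro V₁ _ _ _ Q₁ P₁ h1 h2 h3
  have h4 : HolNear Q₁ (P ∘ P₁) := by
    filter_upwards [h2, (h2.tendsto h3).eventually hP] with z k1 k2
    exact k2.comp z k1
  exact h V₁ Q₁ (P ∘ P₁) h1 h4 (hPQ.comp h3)

theorem FE.of_eq {F G : V → X} (h : F =ᶠ[𝓝ˢ Q] G) : FE Q F G := by
  intro V₁ _ _ _ Q₁ P h1 h2 h3
  have h4 : (F ∘ P) =ᶠ[𝓝ˢ Q₁] (G ∘ P) := (h2.tendsto h3).eventually h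
  exact ⟨fun hF => hF.congr h4, fun hF => hF.congr h4.symm⟩

theorem FE.of_reach {J : Type} {𝓛 : J → LineFlow C2 X} {F G : V → X} (h : Reach 𝓛 Q F G) :
    FE Q F G := fun _ _ _ _ _ _ _ h2 h3 =>
  ⟨fun hF => hF.reach (Reach.comp h2 h3 h), fun hF => hF.reach (Reach.comp h2 h3 h).symm⟩

theorem FE.of_tr {T : Transfer π ρ} {F : V → X} {G : V → Y} {e : T.A → V → ℂ}
    (hπ : MDifferentiable 𝓘(ℂ, C2) 𝓘(ℂ) π) (hρ : MDifferentiable 𝓘(ℂ, C2) 𝓘(ℂ) ρ)
    (hT : Tr T Q F G e) (hF : MHolNear C2 Q F) (hG : MHolNear C2 Q G) : FE Q F G := by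
  intro V₁ _ _ _ Q₁ P h1 h2 h3
  have h4 := hT.comp h2 h3
  exact ⟨fun h => factor_of_tr (T := T.symm) hρ hπ h4.symm (hG.comp h2 h3) h,
    fun h => factor_of_tr hπ hρ h4 (hF.comp h2 h3) h⟩

end

end Vale.Agent.P290.H595
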