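import Vale.Agent.P290.H595.Deriv

/-! Extension of a spray by one piece: transfer to another surface, conjugated flows there, and
transfer back. -/

open Set Filter Metric
open scoped Manifold ContDiff Topology

namespace Vale.Agent.P290.H595

open Vale.Agent.P290

/-- a surface `Y` fibred over a Riemann surface and in correspondence with `X`, with two flows -/
structure TSys (X : Type) [TopologicalSpace X] [ChartedSpace C2 X] where
  Y : Type
  C : Type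
  [topY : TopologicalSpace Y]
  [chY : ChartedSpace C2 Y]
  [manY : IsManifold 𝓘(ℂ, C2) 1 Y]
  [topC : TopologicalSpace C]
  [chC : ChartedSpace ℂ C]
  π : X → C
  ρ : Y → C
  hπ : MDifferentiable 𝓘(ℂ, C2) 𝓘(ℂ) π
  hρ : MDifferentiable 𝓘(ℂ, C2) 𝓘(ℂ) ρ
  T : Transfer π ρ
  L : LineFlow C2 Y
  L' : LineFlow C2 Y

attribute [instance] TSys.topY TSys.chY TSys.manY TSys.topC TSys.chC

/-- the two flows -/
def TSys.fam {X : Type} [TopologicalSpace X] [ChartedSpace C2 X] (D : TSys X) :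
    Bool → LineFlow C2 D.Y
  | false => D.L
  | true => D.L'

/-- parameters of one piece -/
abbrev UU : Type := (Bool → ℂ) × ℂ

theorem good_closedBall' {W : Type} [NormedAddCommGroup W] [NormedSpace ℂ W]
    [FiniteDimensional ℂ W] : Good (closedBall (0 : W) 1) := by
  have : ProperSpace W := FiniteDimensional.proper ℂ W
  exact ⟨isCompact_closedBall 0 1, convex_closedBall _ _⟩

section

variable {X V W : Type} [TopologicalSpace X] [ChartedSpace C2 X] [IsManifold 𝓘(ℂ, C2) 1 X]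
  [NormedAddCommGroup V] [NormedSpace ℂ V] [FiniteDimensional ℂ V]
  [NormedAddCommGroup W] [NormedSpace ℂ W] [FiniteDimensional ℂ W]

omit [IsManifold 𝓘(ℂ, C2) 1 X] [FiniteDimensional ℂ V] in
theorem mdiff_comp_of_near {D : TSys X} {Q : Set V} {F : V → X} (hF : MHolNear C2 Q F) :
    ∀ᶠ z in 𝓝ˢ Q, MDifferentiableAt 𝓘(ℂ, V) 𝓘(ℂ) (fun z => D.π (F z)) z := by
  filter_upwards [hF] with z hz
  exact (D.hπ (F z)).comp z hz

theorem exists_piece (D : TSys X) {Q : Set V} (hQ : Good Q) {f : V → X}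
    {G : V → D.Y} {e : D.T.A → V → ℂ} (hT : Tr D.T Q f G e) {θ : D.L.A → V → ℂ}
    (hθ : Sec D.L Q G θ) (c : ℂ) {S : V × W → X}
    (hS : MHolNear C2 (Q ×ˢ closedBall (0 : W) 1) S) (hS0 : ∀ᶠ z in 𝓝ˢ Q, S (z, 0) = f z) :
    ∃ S' : V × (W × UU) → X,
      MHolNear C2 (Q ×ˢ closedBall (0 : W × UU) 1) S' ∧
      FE (Q ×ˢ closedBall (0 : W × UU) 1) (fun p => S (p.1, p.2.1)) S' ∧
      (∀ᶠ p in 𝓝ˢ (Q ×ˢ closedBall (0 : W) 1), S' (p.1, (p.2, 0)) = S p) ∧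
      ∀ z ∈ Q, (∃ a, G z ∈ D.L.U a ∧ D.L.φ a (G z) (c * θ a z) ∈ IndepSet D.L D.L') →
        Function.Surjective (mfderiv 𝓘(ℂ, UU) 𝓘(ℂ, C2) (fun u => S' (z, (0, u))) 0 :
          UU →L[ℂ] C2) := by
  -- the first space
  set Q₁ : Set (V × W) := Q ×ˢ closedBall (0 : W) 1 with hQ₁
  have hQ₁g : Good Q₁ := hQ.prod good_closedBall'
  have h0W : (0 : W) ∈ closedBall (0 : W) 1 := mem_closedBall_self zero_le_one
  set r₀ : (V × W) →L[ℂ] (V × W) :=
    (ContinuousLinearMap.inl ℂ V W).comp (ContinuousLinearMap.fst ℂ V W) with hr₀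
  have hr₀a : ∀ y : V × W, r₀ y = (y.1, 0) := fun y => by simp [hr₀]
  have hr₀r : ∀ y, r₀ (r₀ y) = r₀ y := fun y => by simp [hr₀a]
  have hr₀Q : MapsTo r₀ Q₁ Q₁ := fun y hy => by rw [hr₀a]; exact ⟨hy.1, h0W⟩
  have hfst : HolNear Q₁ (fun y : V × W => y.1) := holNear_clm' (ContinuousLinearMap.fst ℂ V W)
  have hfstm : MapsTo (fun y : V × W => y.1) Q₁ Q := fun y hy => hy.1
  have hfstt : Tendsto (fun y : V × W => y.1) (𝓝ˢ Q₁) (𝓝ˢ Q) := hfst.tendsto hfstm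
  have hr₀t : Tendsto (fun y => r₀ y) (𝓝ˢ Q₁) (𝓝ˢ Q₁) := (holNear_clm' r₀).tendsto hr₀Q
  have hg₁ : ∀ᶠ y in 𝓝ˢ Q₁, MDifferentiableAt 𝓘(ℂ, V × W) 𝓘(ℂ) (fun y => D.π (S y)) y :=
    mdiff_comp_of_near (D := D) hS
  have hS0' : ∀ᶠ y in 𝓝ˢ Q₁, S (y.1, 0) = f y.1 := hfstt.eventually hS0
  -- extension of the section of the affine bundle
  have he0 : Aff D.T Q₁ ((fun y => D.π (S y)) ∘ r₀) (fun a y => e a y.1) := by
    refine (hT.1.comp hfst hfstm).congr ?_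
    filter_upwards [hS0'] with y hy
    simp only [Function.comp, hr₀a, hy]
  obtain ⟨e₁, he₁, he₁r⟩ := exists_Aff_ext hQ₁g hg₁ r₀ hr₀r hr₀Q he0
    (Eventually.of_forall fun y a _ => by simp [hr₀a])
  obtain ⟨G₁, hG₁⟩ := exists_Tr (T := D.T) (F := S) he₁
  have hG₁h : MHolNear C2 Q₁ G₁ := hG₁.mHolNear (hg₁.mono fun y hy => hy.continuousAt) hS
  have hG₁0 : ∀ᶠ y in 𝓝ˢ Q₁, G₁ (r₀ y) = G y.1 := by
    filter_upwards [hr₀t.eventually hG₁.2, hfstt.eventually hT.2, he₁r, hS0'] with y h1 h2 h3 h4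
    have hi := D.T.idx_mem (D.π (f y.1))
    have h5 : D.π (S (r₀ y)) ∈ D.T.O (D.T.idx (D.π (f y.1))) := by
      rw [hr₀a, h4]; exact hi
    rw [h1 _ h5, h3 _ h5, h2 _ hi, hr₀a, h4]
  -- extension of the section of the line bundle of the flow
  have hθ0 : Sec D.L Q₁ (G₁ ∘ r₀) (fun a y => θ a y.1) := by
    refine (hθ.comp hfst hfstm).congr ?_
    filter_upwards [hG₁0] with y hy
    exact hy.symm
  obtain ⟨θ₁, hθ₁, hθ₁r⟩ := exists_sec_ext hQ₁g hG₁h r₀ hr₀r hr₀Q hθ0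
    (Eventually.of_forall fun y a _ => by simp [hr₀a])
  obtain ⟨θ₂, hθ₂, -⟩ := exists_triv D.L' hQ₁g hG₁h
  -- the composite spray in `Y`
  obtain ⟨S₁, hS₁r, hS₁0, hS₁c⟩ := exists_composite (P := Bool) D.fam hQ₁g hG₁h
    (fun j => match j with
      | false => θ₁
      | true => θ₂)
    (fun j => match j with
      | false => hθ₁
      | true => hθ₂)
    (fun _ => false) (fun p => p) (fun p => if p then c else 0)
  set B : Set (Bool → ℂ) := closedBall 0 1 with hB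
  have h0B : (0 : Bool → ℂ) ∈ B := mem_closedBall_self zero_le_one
  -- the second space
  set Q₂ : Set (V × (W × UU)) := Q ×ˢ closedBall (0 : W × UU) 1 with hQ₂
  have hQ₂g : Good Q₂ := hQ.prod good_closedBall'
  set q : (V × (W × UU)) →L[ℂ] ((V × W) × (Bool → ℂ)) :=
    ((ContinuousLinearMap.fst ℂ V (W × UU)).prod
      ((ContinuousLinearMap.fst ℂ W UU).comp (ContinuousLinearMap.snd ℂ V (W × UU)))).prod
      ((ContinuousLinearMap.fst ℂ (Bool → ℂ) ℂ).comp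
        ((ContinuousLinearMap.snd ℂ W UU).comp (ContinuousLinearMap.snd ℂ V (W × UU)))) with hq
  have hqa : ∀ y : V × (W × UU), q y = ((y.1, y.2.1), y.2.2.1) := fun y => rfl
  have hqm : MapsTo q Q₂ (Q₁ ×ˢ B) := by
    rintro ⟨z, w, u, v⟩ ⟨hz, hw⟩
    rw [mem_closedBall_zero_iff] at hw
    have h1 : ‖w‖ ≤ 1 := (norm_fst_le (w, (u, v))).trans hw
    have h2 : ‖((u, v) : UU)‖ ≤ 1 := (norm_snd_le (w, (u, v))).trans hw
    have h3 : ‖u‖ ≤ 1 := (norm_fst_le (u, v)).trans h2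
    exact ⟨⟨hz, mem_closedBall_zero_iff.2 h1⟩, mem_closedBall_zero_iff.2 h3⟩
  set p₁ : (V × (W × UU)) →L[ℂ] (V × W) :=
    (ContinuousLinearMap.fst ℂ V (W × UU)).prod
      ((ContinuousLinearMap.fst ℂ W UU).comp (ContinuousLinearMap.snd ℂ V (W × UU))) with hp₁
  have hp₁a : ∀ y : V × (W × UU), p₁ y = (y.1, y.2.1) := fun y => rfl
  have hp₁m : MapsTo p₁ Q₂ Q₁ := fun y hy => (hqm hy).1
  have hp₁h : HolNear Q₂ (fun y => p₁ y) := holNear_clm' p₁
  have hp₁t : Tendsto (fun y => p₁ y) (𝓝ˢ Q₂) (𝓝ˢ Q₁) := hp₁h.tendsto hp₁m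
  have hqh : HolNear Q₂ (fun y => q y) := holNear_clm' q
  have hqt : Tendsto (fun y => q y) (𝓝ˢ Q₂) (𝓝ˢ (Q₁ ×ˢ B)) := hqh.tendsto hqm
  set r : ((V × W) × (Bool → ℂ)) →L[ℂ] ((V × W) × (Bool → ℂ)) :=
    (ContinuousLinearMap.inl ℂ (V × W) (Bool → ℂ)).comp
      (ContinuousLinearMap.fst ℂ (V × W) (Bool → ℂ)) with hr
  have hra : ∀ y : (V × W) × (Bool → ℂ), r y = (y.1, 0) := fun y => rfl
  have hrr : ∀ y, r (r y) = r y := fun y => rfl
  have hrm : MapsTo r (Q₁ ×ˢ B) (Q₁ ×ˢ B) := fun y hy => ⟨hy.1, h0B⟩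
  have hQB : Good (Q₁ ×ˢ B) := hQ₁g.prod (good_closedBall_pi 1)
  have hfs : HolNear (Q₁ ×ˢ B) (fun y : (V × W) × (Bool → ℂ) => y.1) :=
    holNear_clm' (ContinuousLinearMap.fst ℂ (V × W) (Bool → ℂ))
  have hfsm : MapsTo (fun y : (V × W) × (Bool → ℂ) => y.1) (Q₁ ×ˢ B) Q₁ := fun y hy => hy.1
  have hfst' := hfs.tendsto hfsm
  -- the composite spray on the second space
  have hF₁ : MHolNear C2 (Q₁ ×ˢ B) (fun y : (V × W) × (Bool → ℂ) => G₁ y.1) :=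
    hG₁h.comp (holNear_clm' (ContinuousLinearMap.fst ℂ (V × W) (Bool → ℂ))) (fun y hy => hy.1)
  have hS₁h : MHolNear C2 (Q₁ ×ˢ B) S₁ := hS₁r.mHolNear hF₁
  set S₂ : V × (W × UU) → D.Y := S₁ ∘ q with hS₂
  have hS₂h : MHolNear C2 Q₂ S₂ := hS₁h.comp hqh hqm
  have hg₂ : ∀ᶠ y in 𝓝ˢ (Q₁ ×ˢ B),
      MDifferentiableAt 𝓘(ℂ, (V × W) × (Bool → ℂ)) 𝓘(ℂ) (fun y => D.ρ (S₁ y)) y := by
    filter_upwards [hS₁h] with y hy
    exact (D.hρ (S₁ y)).comp y hy
  have hg₂' : ∀ᶠ y in 𝓝ˢ Q₂, ContinuousAt (fun y => D.ρ (S₂ y)) y := by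
    filter_upwards [hS₂h] with y hy
    exact ((D.hρ (S₂ y)).comp y hy).continuousAt
  have he₁' : Aff D.T (Q₁ ×ˢ B) ((fun y => D.ρ (S₁ y)) ∘ r) (fun a y => e₁ a y.1) := by
    refine (he₁.comp hfs hfsm).congr ?_
    filter_upwards [hfst'.eventually hS₁0, hfst'.eventually hG₁.base] with y h1 h2
    simp only [Function.comp, hra]
    rw [h1, h2]
  obtain ⟨e₂, he₂, he₂r⟩ := exists_Aff_ext hQB hg₂ r hrr hrm he₁'
    (Eventually.of_forall fun y a _ => rfl)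
  obtain ⟨ϑ, hϑ⟩ := exists_Lin D.T hQB hg₂
  set ℓ : (V × (W × UU)) →L[ℂ] ℂ := (ContinuousLinearMap.snd ℂ (Bool → ℂ) ℂ).comp
    ((ContinuousLinearMap.snd ℂ W UU).comp (ContinuousLinearMap.snd ℂ V (W × UU))) with hℓ
  have hℓa : ∀ y : V × (W × UU), ℓ y = y.2.2.2 := fun y => rfl
  have he₃ := (he₂.comp hqh hqm).add_mul (hϑ.comp hqh hqm) (holNear_clm' ℓ)
  obtain ⟨S', hS'⟩ := exists_Tr (T := D.T.symm) (F := S₂) he₃
  have hS'h : MHolNear C2 Q₂ S' := hS'.mHolNear hg₂' hS₂h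
  refine ⟨S', hS'h, ?_, ?_, ?_⟩
  · -- factorisation
    have k1 : FE Q₂ (S ∘ p₁) (G₁ ∘ p₁) :=
      FE.of_tr D.hπ D.hρ (hG₁.comp hp₁h hp₁m) (hS.comp hp₁h hp₁m) (hG₁h.comp hp₁h hp₁m)
    have k2 : FE Q₂ ((fun y : (V × W) × (Bool → ℂ) => G₁ y.1) ∘ q) (S₁ ∘ q) :=
      (FE.of_reach hS₁r).comp hqh hqm
    have k3 : FE Q₂ S₂ S' := FE.of_tr (T := D.T.symm) D.hρ D.hπ hS' hS₂h hS'h
    exact (k1.trans k2).trans k3
  · -- restriction
    have hι : HolNear Q₁ (fun y : V × W => ((y.1, (y.2, 0)) : V × (W × UU))) :=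
      holNear_clm' ((ContinuousLinearMap.fst ℂ V W).prod
        ((ContinuousLinearMap.inl ℂ W UU).comp (ContinuousLinearMap.snd ℂ V W)))
    have hιm : MapsTo (fun y : V × W => ((y.1, (y.2, 0)) : V × (W × UU))) Q₁ Q₂ := by
      rintro ⟨z, w⟩ ⟨hz, hw⟩
      rw [mem_closedBall_zero_iff] at hw
      refine ⟨hz, mem_closedBall_zero_iff.2 ?_⟩
      change ‖((w, (0 : UU)) : W × UU)‖ ≤ 1
      rw [Prod.norm_mk, norm_zero, max_eq_left (norm_nonneg _)]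
      exact hw
    have hιt := hι.tendsto hιm
    have hκ : HolNear Q₁ (fun y : V × W => ((y, 0) : (V × W) × (Bool → ℂ))) :=
      holNear_clm' (ContinuousLinearMap.inl ℂ (V × W) (Bool → ℂ))
    have hκm : MapsTo (fun y : V × W => ((y, 0) : (V × W) × (Bool → ℂ))) Q₁ (Q₁ ×ˢ B) :=
      fun y hy => ⟨hy, h0B⟩
    have hκt := hκ.tendsto hκm
    filter_upwards [hιt.eventually hS'.2, hS₁0, hκt.eventually he₂r, hG₁.back,
      hG₁.base] with y h1 h2 h3 h4 h5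
    have hi := D.T.idx_mem (D.π (S y))
    have h2' : S₂ (y.1, (y.2, 0)) = G₁ y := h2
    have h6 : D.ρ (S₂ (y.1, (y.2, 0))) ∈ D.T.O (D.T.idx (D.π (S y))) := by
      rw [h2', h5]; exact hi
    rw [h1 _ h6, h2', hℓa]
    simp only [Prod.snd_zero, mul_zero, add_zero]
    have h7 : e₂ (D.T.idx (D.π (S y))) (y, 0) = e₁ (D.T.idx (D.π (S y))) y := h3 _ h6
    have h8 : (e₂ (D.T.idx (D.π (S y))) ∘ fun y => q y) (y.1, (y.2, 0)) =
        e₁ (D.T.idx (D.π (S y))) y := h7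
    rw [h8]
    exact (h4 _ hi).symm
  · -- surjectivity
    rintro z hz ⟨a, ha, haI⟩
    have hzQ₁ : ((z, 0) : V × W) ∈ Q₁ := ⟨hz, h0W⟩
    have hzB : (((z, 0), 0) : (V × W) × (Bool → ℂ)) ∈ Q₁ ×ˢ B := ⟨hzQ₁, h0B⟩
    have hzQ₂ : ((z, 0) : V × (W × UU)) ∈ Q₂ := ⟨hz, mem_closedBall_self zero_le_one⟩
    have hGz : G₁ (z, 0) = G z := by
      have := hG₁0.self_of_nhdsSet (z, 0) hzQ₁
      rwa [hr₀a] at this
    have hθz : θ₁ a (z, 0) = θ a z := by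
      have := hθ₁r.self_of_nhdsSet (z, 0) hzQ₁ a
      rw [hr₀a] at this
      exact this (by rw [hGz]; exact ha)
    have hS₁z : S₁ ((z, 0), 0) = G₁ (z, 0) := hS₁0.self_of_nhdsSet (z, 0) hzQ₁
    have hc1 := (hS₁c false).self_of_nhdsSet (z, 0) hzQ₁
    have hc2 := (hS₁c true).self_of_nhdsSet (z, 0) hzQ₁
    simp only [Bool.false_eq_true, if_false] at hc1
    simp only [if_true] at hc2
    have harea := conj_area_ne_zero D.L D.L' (x := G₁ (z, 0)) (a := a) (by rw [hGz]; exact ha)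
      (θ := fun a => θ₁ a (z, 0)) (c := c) (by rw [hGz, hθz]; exact haI) hc1 hc2
    -- the derivative of the spray in `Y`
    have hS₁m := hS₁h.mdifferentiableAt hzB
    have hs₁ : MDifferentiableAt 𝓘(ℂ, Bool → ℂ) 𝓘(ℂ, C2) (fun w => S₁ ((z, 0), w)) 0 := by
      have h4 : MDifferentiableAt 𝓘(ℂ, Bool → ℂ) 𝓘(ℂ, (V × W) × (Bool → ℂ))
          (fun w : Bool → ℂ => (((z, 0), w) : (V × W) × (Bool → ℂ))) 0 := by
        apply DifferentiableAt.mdifferentiableAt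
        fun_prop
      exact MDifferentiableAt.comp (g := S₁)
        (f := fun w : Bool → ℂ => (((z, 0), w) : (V × W) × (Bool → ℂ))) (0 : Bool → ℂ) hS₁m h4
    set D₁ : (Bool → ℂ) →L[ℂ] C2 :=
      mfderiv 𝓘(ℂ, Bool → ℂ) 𝓘(ℂ, C2) (fun w => S₁ ((z, 0), w)) 0 with hD₁
    have hsurj₁ : Function.Surjective D₁ := by
      apply surjective_of_area D₁ (u := Pi.single false 1) (v := Pi.single true 1)
      have e1 : ∀ p : Bool, D₁ (Pi.single p 1) = deriv (fun w => chartAt C2 (S₁ ((z, 0), 0))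
          (S₁ ((z, 0), Pi.single p w))) 0 := fun p => mfderiv_single hs₁ p
      rw [e1, e1, hS₁z]
      exact harea
    -- the section in the direction of the parameters
    set a' := D.T.idx (D.ρ (G z)) with ha'
    have ha'm : D.ρ (G z) ∈ D.T.O a' := D.T.idx_mem _
    have ha'₂ : D.ρ (S₁ ((z, 0), 0)) ∈ D.T.O a' := by rw [hS₁z, hGz]; exact ha'm
    have hq1 := he₂.self_of_nhdsSet _ hzB a' ha'₂
    have hq2 := hϑ.self_of_nhdsSet _ hzB a' ha'₂
    have hE1 : DifferentiableAt ℂ (fun u : UU => e₂ a' ((z, 0), u.1)) 0 := by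
      have h4 : DifferentiableAt ℂ (fun u : UU => (((z, 0), u.1) : (V × W) × (Bool → ℂ))) 0 := by
        fun_prop
      exact DifferentiableAt.comp (g := e₂ a')
        (f := fun u : UU => (((z, 0), u.1) : (V × W) × (Bool → ℂ))) (0 : UU) hq1.1 h4
    have hE2 : DifferentiableAt ℂ (fun u : UU => ϑ a' ((z, 0), u.1)) 0 := by
      have h4 : DifferentiableAt ℂ (fun u : UU => (((z, 0), u.1) : (V × W) × (Bool → ℂ))) 0 := by
        fun_prop
      exact DifferentiableAt.comp (g := ϑ a')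
        (f := fun u : UU => (((z, 0), u.1) : (V × W) × (Bool → ℂ))) (0 : UU) hq2.1 h4
    set E : UU → ℂ := fun u => e₂ a' ((z, 0), u.1) + ϑ a' ((z, 0), u.1) * u.2 with hE
    have hEd : DifferentiableAt ℂ E 0 := hE1.add (hE2.mul (by fun_prop))
    have hE01 : fderiv ℂ E 0 (0, 1) = ϑ a' ((z, 0), 0) := by
      have h1 : HasDerivAt (fun v : ℂ => E (0, v)) (ϑ a' ((z, 0), 0)) 0 := by
        have h2 : (fun v : ℂ => E (0, v)) =
            fun v => e₂ a' ((z, 0), 0) + ϑ a' ((z, 0), 0) * v := by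
          funext v; simp only [hE]
        rw [h2]
        simpa using ((hasDerivAt_id (0 : ℂ)).const_mul (ϑ a' ((z, 0), 0))).const_add
          (e₂ a' ((z, 0), 0))
      have h3 : HasDerivAt (fun v : ℂ => ((0, v) : UU)) (0, 1) 0 :=
        (hasDerivAt_const _ _).prodMk (hasDerivAt_id _)
      have h4 : HasFDerivAt E (fderiv ℂ E 0) ((fun v : ℂ => ((0, v) : UU)) 0) := hEd.hasFDerivAt
      exact (h4.comp_hasDerivAt (0 : ℂ) h3).unique h1
    -- the maps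
    set s : UU → D.Y := fun u => S₁ ((z, 0), u.1) with hs
    have hsm : MDifferentiableAt 𝓘(ℂ, UU) 𝓘(ℂ, C2) s 0 := by
      have h4 : MDifferentiableAt 𝓘(ℂ, UU) 𝓘(ℂ, (V × W) × (Bool → ℂ))
          (fun u : UU => (((z, 0), u.1) : (V × W) × (Bool → ℂ))) 0 := by
        apply DifferentiableAt.mdifferentiableAt
        fun_prop
      exact MDifferentiableAt.comp (g := S₁)
        (f := fun u : UU => (((z, 0), u.1) : (V × W) × (Bool → ℂ))) (0 : UU) hS₁m h4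
    have hsd : ∀ u : UU, (mfderiv 𝓘(ℂ, UU) 𝓘(ℂ, C2) s 0 : UU →L[ℂ] C2) u = D₁ u.1 := by
      intro u
      have h1 : (mfderiv 𝓘(ℂ, UU) 𝓘(ℂ, C2) s 0 : UU →L[ℂ] C2) =
          D₁ ∘L (ContinuousLinearMap.fst ℂ (Bool → ℂ) ℂ) := by
        have e2 : D₁ = fderiv ℂ (fun w : Bool → ℂ => chartAt C2 (S₁ ((z, 0), 0))
            (S₁ ((z, 0), w))) 0 := mfd_eq hs₁
        rw [mfd_eq hsm, e2]
        have h5 : HasFDerivAt (fun w : Bool → ℂ => chartAt C2 (S₁ ((z, 0), 0)) (S₁ ((z, 0), w)))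
            (fderiv ℂ (fun w : Bool → ℂ => chartAt C2 (S₁ ((z, 0), 0)) (S₁ ((z, 0), w))) 0)
            ((fun u : UU => u.1) 0) :=
          (differentiableAt_chart_comp (chart_mem_atlas _ _) hs₁
            (mem_chart_source _ _)).hasFDerivAt
        have h6 : HasFDerivAt (fun u : UU => u.1) (ContinuousLinearMap.fst ℂ (Bool → ℂ) ℂ) 0 :=
          (ContinuousLinearMap.fst ℂ (Bool → ℂ) ℂ).hasFDerivAt
        exact (h5.comp (0 : UU) h6).fderiv
      rw [h1]; rfl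
    have key := surj_transfer D.T D.hπ.continuous (s := s) (E := E) (u₀ := 0) (a := a') hsm hEd
      ha'₂ (by
        intro y
        obtain ⟨w, hw⟩ := hsurj₁ y
        refine ⟨(w, -(fderiv ℂ E 0 (w, 0)) / ϑ a' ((z, 0), 0)), ?_, ?_⟩
        · rw [hsd]; exact hw
        · set k : ℂ := -(fderiv ℂ E 0 (w, 0)) / ϑ a' ((z, 0), 0) with hk
          have h1 : ((w, k) : UU) = (w, 0) + k • ((0, 1) : UU) := by simp
          rw [h1, map_add, map_smul, hE01, smul_eq_mul, hk, div_mul_cancel₀ _ hq2.2.1]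
          ring)
    -- comparison
    have hιc : ContinuousAt (fun u : UU => ((z, (0, u)) : V × (W × UU))) 0 := by fun_prop
    have hev : (fun u : UU => S' (z, (0, u))) =ᶠ[𝓝 0] fun u => D.T.ψ' a' (s u) (E u) := by
      have h1 := (eventually_eventually_nhds' hS'.2).self_of_nhdsSet _ hzQ₂
      have h2 : ∀ᶠ u : UU in 𝓝 0, D.ρ (s u) ∈ D.T.O a' := by
        have h3 : ContinuousAt (fun u => D.ρ (s u)) 0 :=
          ContinuousAt.comp (g := D.ρ) D.hρ.continuous.continuousAt hsm.continuousAt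
        exact h3.eventually ((D.T.isOpen_O a').mem_nhds ha'₂)
      filter_upwards [hιc.eventually h1, h2] with u k1 k2
      exact k1 a' k2
    have hfin : (mfderiv 𝓘(ℂ, UU) 𝓘(ℂ, C2) (fun u => S' (z, (0, u))) 0 : UU →L[ℂ] C2) =
        mfderiv 𝓘(ℂ, UU) 𝓘(ℂ, C2) (fun u => D.T.ψ' a' (s u) (E u)) 0 :=
      hev.mfderiv_eq
    rw [hfin]
    exact key

end

end Vale.Agent.P290.H595
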