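import Vale.Agent.P290.Bdl.B3

/-! Transfers between fibred surfaces along holomorphic maps, and the relation factors-iff. -/

open Set Filter Metric
open scoped Manifold ContDiff Topology

namespace Vale.Agent.P290.H595

open Vale.Agent.P290

variable {X Y C : Type} [TopologicalSpace X] [ChartedSpace C2 X] [TopologicalSpace Y]
  [ChartedSpace C2 Y] [TopologicalSpace C] [ChartedSpace ℂ C] {π : X → C} {ρ : Y → C}
  {V : Type} [NormedAddCommGroup V] [NormedSpace ℂ V]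

/-- `e` is a holomorphic section of the affine bundle of `T` along `g` near `Q` -/
def Aff (T : Transfer π ρ) (Q : Set V) (g : V → C) (e : T.A → V → ℂ) : Prop :=
  ∀ᶠ z in 𝓝ˢ Q, ∀ a, g z ∈ T.O a → DifferentiableAt ℂ (e a) z ∧
    ∀ b, g z ∈ T.O b → e b z = T.γ a b (g z) * e a z + T.σ a b (g z)

/-- `θ` is a nowhere zero holomorphic section of the line bundle of `T` along `g` near `Q` -/
def Lin (T : Transfer π ρ) (Q : Set V) (g : V → C) (θ : T.A → V → ℂ) : Prop :=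
  ∀ᶠ z in 𝓝ˢ Q, ∀ a, g z ∈ T.O a → DifferentiableAt ℂ (θ a) z ∧ θ a z ≠ 0 ∧
    ∀ b, g z ∈ T.O b → θ b z = T.γ a b (g z) * θ a z

/-- `G` is the transferred map of `F` with the section `e` -/
def Tr (T : Transfer π ρ) (Q : Set V) (F : V → X) (G : V → Y) (e : T.A → V → ℂ) : Prop :=
  Aff T Q (fun z => π (F z)) e ∧
    ∀ᶠ z in 𝓝ˢ Q, ∀ a, π (F z) ∈ T.O a → G z = T.ψ a (F z) (e a z)

section basics

variable {T : Transfer π ρ} {Q : Set V} {g : V → C} {e : T.A → V → ℂ}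

theorem Aff.congr {g' : V → C} (he : Aff T Q g e) (h : g =ᶠ[𝓝ˢ Q] g') : Aff T Q g' e := by
  filter_upwards [he, h] with z h1 h2
  rw [← h2]; exact h1

theorem Lin.congr {g' : V → C} {θ : T.A → V → ℂ} (he : Lin T Q g θ) (h : g =ᶠ[𝓝ˢ Q] g') :
    Lin T Q g' θ := by
  filter_upwards [he, h] with z h1 h2
  rw [← h2]; exact h1

theorem Aff.comp {V' : Type} [NormedAddCommGroup V'] [NormedSpace ℂ V'] {Q' : Set V'}
    {P : V' → V} (he : Aff T Q g e) (hP : HolNear Q' P) (hPQ : MapsTo P Q' Q) :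
    Aff T Q' (g ∘ P) (fun a => e a ∘ P) := by
  have ht := hP.tendsto hPQ
  filter_upwards [ht.eventually he, hP] with z hz1 hz2 a ha
  exact ⟨(hz1 a ha).1.comp z hz2, (hz1 a ha).2⟩

theorem Lin.comp {V' : Type} [NormedAddCommGroup V'] [NormedSpace ℂ V'] {Q' : Set V'}
    {P : V' → V} {θ : T.A → V → ℂ} (he : Lin T Q g θ) (hP : HolNear Q' P) (hPQ : MapsTo P Q' Q) :
    Lin T Q' (g ∘ P) (fun a => θ a ∘ P) := by
  have ht := hP.tendsto hPQ
  filter_upwards [ht.eventually he, hP] with z hz1 hz2 a ha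
  exact ⟨(hz1 a ha).1.comp z hz2, (hz1 a ha).2⟩

theorem Aff.add_mul {θ : T.A → V → ℂ} (he : Aff T Q g e) (hθ : Lin T Q g θ) {h : V → ℂ}
    (hh : HolNear Q h) : Aff T Q g (fun a z => e a z + θ a z * h z) := by
  filter_upwards [he, hθ, hh] with z h1 h2 h3 a ha
  refine ⟨(h1 a ha).1.add ((h2 a ha).1.mul h3), fun b hb => ?_⟩
  rw [(h1 a ha).2 b hb, (h2 a ha).2.2 b hb]
  ring

/-- the difference of two sections -/
theorem Aff.sub {θ e' : T.A → V → ℂ} (he : Aff T Q g e) (he' : Aff T Q g e') (hθ : Lin T Q g θ)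
    (hg : ∀ᶠ z in 𝓝ˢ Q, ContinuousAt g z) :
    ∃ h : V → ℂ, HolNear Q h ∧
      ∀ᶠ z in 𝓝ˢ Q, ∀ a, g z ∈ T.O a → e' a z = e a z + θ a z * h z := by
  set h : V → ℂ := fun z => (e' (T.idx (g z)) z - e (T.idx (g z)) z) / θ (T.idx (g z)) z with hh
  have key : ∀ᶠ z in 𝓝ˢ Q, ∀ a, g z ∈ T.O a → e' a z = e a z + θ a z * h z := by
    filter_upwards [he, he', hθ] with z h1 h2 h3 a ha
    have hi := T.idx_mem (g z)
    have hγ := T.γ_ne _ a _ hi ha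
    have hθi := (h3 _ hi).2.1
    rw [(h1 _ hi).2 a ha, (h2 _ hi).2 a ha, (h3 _ hi).2.2 a ha]
    simp only [hh]
    (clear * - hθi hγ; field_simp; ring)
  refine ⟨h, ?_, key⟩
  filter_upwards [he, he', hθ, hg, eventually_eventually_nhds' key,
    eventually_eventually_nhds' hθ] with z h1 h2 h3 h4 h5 h6
  have hi := T.idx_mem (g z)
  have hU : ∀ᶠ y in 𝓝 z, g y ∈ T.O (T.idx (g z)) := h4.eventually ((T.isOpen_O _).mem_nhds hi)
  have h7 : h =ᶠ[𝓝 z] fun y => (e' (T.idx (g z)) y - e (T.idx (g z)) y) *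
      (θ (T.idx (g z)) y)⁻¹ := by
    filter_upwards [h5, h6, hU] with y hy1 hy2 hy3
    rw [hy1 _ hy3]
    have := (hy2 _ hy3).2.1
    (clear * - this; field_simp; ring)
  exact (((h2 _ hi).1.sub (h1 _ hi).1).mul ((h3 _ hi).1.inv (h3 _ hi).2.1)).congr_of_eventuallyEq h7

variable [FiniteDimensional ℂ V]

theorem exists_Aff (T : Transfer π ρ) (hQ : Good Q)
    (hg : ∀ᶠ z in 𝓝ˢ Q, MDifferentiableAt 𝓘(ℂ, V) 𝓘(ℂ) g z) :
    ∃ e : T.A → V → ℂ, Aff T Q g e := T.exists_aff hQ hg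

theorem exists_Lin (T : Transfer π ρ) (hQ : Good Q)
    (hg : ∀ᶠ z in 𝓝ˢ Q, MDifferentiableAt 𝓘(ℂ, V) 𝓘(ℂ) g z) :
    ∃ θ : T.A → V → ℂ, Lin T Q g θ := by
  obtain ⟨R, hRo, hQR, hR⟩ := mem_nhdsSet_iff_exists.1 hg
  have hgc : ContinuousOn g R := fun z hz => (hR hz).continuousAt.continuousWithinAt
  obtain ⟨θ, hθ⟩ := hQ.cousin2 (fun a => R ∩ g ⁻¹' (T.O a))
    (fun a => hgc.isOpen_inter_preimage hRo (T.isOpen_O a))
    (fun z hz => by
      obtain ⟨a, ha⟩ := T.cover (g z)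
      exact mem_iUnion.2 ⟨a, hQR hz, ha⟩)
    (fun a b z => T.γ a b (g z))
    (fun a b z hz => ⟨Transfer.diff_comp (T.γ_hol a b _ hz.1.2 hz.2.2) (hR hz.1.1),
      T.γ_ne a b _ hz.1.2 hz.2.2⟩)
    (fun a b c z hz => T.γ_coc a b c _ hz.1.1.2 hz.1.2.2 hz.2.2)
  have hRn : ∀ᶠ z in 𝓝ˢ Q, z ∈ R := mem_nhdsSet_iff_exists.2 ⟨R, hRo, hQR, fun x hx => hx⟩
  refine ⟨θ, ?_⟩
  filter_upwards [hθ, hRn] with z h1 h2 a ha
  exact ⟨(h1 a ⟨h2, ha⟩).1, (h1 a ⟨h2, ha⟩).2.1, fun b hb => (h1 a ⟨h2, ha⟩).2.2 b ⟨h2, hb⟩⟩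

/-- extension of sections of the affine bundle -/
theorem exists_Aff_ext (hQ : Good Q)
    (hg : ∀ᶠ z in 𝓝ˢ Q, MDifferentiableAt 𝓘(ℂ, V) 𝓘(ℂ) g z)
    (r : V →L[ℂ] V) (hr : ∀ z, r (r z) = r z) (hrQ : MapsTo r Q Q) (he : Aff T Q (g ∘ r) e)
    (her : ∀ᶠ z in 𝓝ˢ Q, ∀ a, g (r z) ∈ T.O a → e a (r z) = e a z) :
    ∃ e' : T.A → V → ℂ, Aff T Q g e' ∧
      ∀ᶠ z in 𝓝ˢ Q, ∀ a, g (r z) ∈ T.O a → e' a (r z) = e a z := by
  obtain ⟨e₀, he₀⟩ := exists_Aff T hQ hg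
  obtain ⟨θ, hθ⟩ := exists_Lin T hQ hg
  have hrh : HolNear Q (fun z => r z) := holNear_clm' r
  have hrt : Tendsto (fun z => r z) (𝓝ˢ Q) (𝓝ˢ Q) := hrh.tendsto hrQ
  have hgc : ∀ᶠ z in 𝓝ˢ Q, ContinuousAt (g ∘ r) z := by
    filter_upwards [hrt.eventually hg] with z hz
    exact ContinuousAt.comp hz.continuousAt r.continuous.continuousAt
  obtain ⟨h, hh, hhe⟩ := (he₀.comp hrh hrQ).sub he (hθ.comp hrh hrQ) hgc
  have hhr : HolNear Q (fun z => h (r z)) := by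
    filter_upwards [hrt.eventually hh, hrh] with z h1 h2
    exact h1.comp z h2
  refine ⟨fun a z => e₀ a z + θ a z * h (r z), he₀.add_mul hθ hhr, ?_⟩
  filter_upwards [hrt.eventually hhe, her] with z h1 h2 a ha
  have h3 := h1 a (by simpa only [Function.comp, hr] using ha)
  simp only [Function.comp, hr] at h3
  rw [hr, ← h3]
  exact h2 a ha

end basics

section transfer

variable {T : Transfer π ρ} {Q : Set V} {F F' : V → X} {G : V → Y} {e : T.A → V → ℂ}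

theorem Tr.base (h : Tr T Q F G e) : ∀ᶠ z in 𝓝ˢ Q, ρ (G z) = π (F z) := by
  filter_upwards [h.2] with z hz
  have hi := T.idx_mem (π (F z))
  rw [hz _ hi, T.ψ_base _ _ _ hi]

theorem Tr.back (h : Tr T Q F G e) :
    ∀ᶠ z in 𝓝ˢ Q, ∀ a, π (F z) ∈ T.O a → F z = T.ψ' a (G z) (e a z) := by
  filter_upwards [h.2] with z hz a ha
  rw [hz a ha, T.left_inv a _ _ ha]

theorem Tr.symm (h : Tr T Q F G e) : Tr T.symm Q G F e := by
  refine ⟨?_, ?_⟩
  · exact Aff.congr (T := T.symm) h.1 (h.base.mono fun z hz => hz.symm)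
  · filter_upwards [h.back, h.base] with z h1 h2 a ha
    rw [h2] at ha
    exact h1 a ha

theorem Tr.comp {V' : Type} [NormedAddCommGroup V'] [NormedSpace ℂ V'] {Q' : Set V'}
    {P : V' → V} (h : Tr T Q F G e) (hP : HolNear Q' P) (hPQ : MapsTo P Q' Q) :
    Tr T Q' (F ∘ P) (G ∘ P) (fun a => e a ∘ P) :=
  ⟨h.1.comp hP hPQ, (hP.tendsto hPQ).eventually h.2⟩

theorem Tr.congr_left (h : Tr T Q F G e) (hF : F =ᶠ[𝓝ˢ Q] F') : Tr T Q F' G e := by
  refine ⟨h.1.congr (hF.mono fun z hz => by simp only [hz]), ?_⟩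
  filter_upwards [h.2, hF] with z h1 h2
  rw [← h2]; exact h1

/-- perform a transfer -/
theorem exists_Tr (he : Aff T Q (fun z => π (F z)) e) : ∃ G : V → Y, Tr T Q F G e := by
  refine ⟨fun z => T.ψ (T.idx (π (F z))) (F z) (e (T.idx (π (F z))) z), he, ?_⟩
  filter_upwards [he] with z hz a ha
  have hi := T.idx_mem (π (F z))
  rw [T.ψ_trans _ a _ _ hi ha, (hz _ hi).2 a ha]

theorem Tr.mHolNear (h : Tr T Q F G e) (hπ : ∀ᶠ z in 𝓝ˢ Q, ContinuousAt (fun z => π (F z)) z)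
    (hF : MHolNear C2 Q F) : MHolNear C2 Q G := by
  filter_upwards [hF, h.1, eventually_eventually_nhds' h.2, hπ] with z h1 h2 h3 h4
  have hi := T.idx_mem (π (F z))
  have h5 := T.ψ_hol (T.idx (π (F z))) V F (e (T.idx (π (F z)))) z h1 (h2 _ hi).1 hi
  refine h5.congr_of_eventuallyEq ?_
  have h6 : ∀ᶠ y in 𝓝 z, π (F y) ∈ T.O (T.idx (π (F z))) :=
    h4.eventually ((T.isOpen_O _).mem_nhds hi)
  filter_upwards [h3, h6] with y hy1 hy2
  exact hy1 _ hy2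

end transfer

end Vale.Agent.P290.H595
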